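import Vale.Agent.P243.Bridge

open scoped ENNReal

namespace Vale.Agent.Results.P243.Disproof

open Vale.Agent.P243

theorem result :
    -- Bang's half-area inequality fails
    (¬ ∀ (K : Set E3), IsConvexBody K →
      ∀ (m : ℕ) (u : Fin m → E3) (B : Fin m → Set E3), IsCylinderCover K m u B →
        Amin K / 2 ≤ ∑ i, area (B i)) ∧
    -- the 1-codimensional cylinder covering conjecture fails
    (¬ ∀ (K : Set E3), IsConvexBody K →
      ∀ (m : ℕ) (u : Fin m → E3) (B : Fin m → Set E3), IsCylinderCover K m u B →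
        1 / 2 ≤ ∑ i, area (B i) / projArea K (u i)) ∧
    -- explicit counterexamples for the regular tetrahedron, with triangular bases
    IsConvexBody tet ∧ Amin tet = ENNReal.ofReal √2 ∧
    (∃ (m : ℕ) (u : Fin m → E3) (B : Fin m → Set E3), IsCylinderCover tet m u B ∧
      (∀ i, ∃ a b c : E3, B i = convexHull ℝ {a, b, c}) ∧
      ∑ i, area (B i) ≤ 1999 / 4000 * Amin tet) ∧
    (∃ (m : ℕ) (u : Fin m → E3) (B : Fin m → Set E3), IsCylinderCover tet m u B ∧
      (∀ i, ∃ a b c : E3, B i = convexHull ℝ {a, b, c}) ∧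
      ∑ i, area (B i) / projArea tet (u i) ≤ 54 / 125) := by
  refine ⟨fun h => ?_, fun h => ?_, tet_body, Amin_tet', cover_abs', cover_rel'⟩
  · obtain ⟨m, u, B, h1, -, h2⟩ := cover_abs'
    have h3 := (h tet tet_body m u B h1).trans h2
    have hc : (1999 / 4000 : ℝ≥0∞) = ENNReal.ofReal (1999 / 4000) := by
      rw [ENNReal.ofReal_div_of_pos (by norm_num)]; simp
    have hc' : ENNReal.ofReal √2 / 2 = ENNReal.ofReal (√2 / 2) := by
      rw [ENNReal.ofReal_div_of_pos (by norm_num)]; simp
    have hs := sq2_pos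
    rw [Amin_tet', hc, hc', ← ENNReal.ofReal_mul (by norm_num),
      ENNReal.ofReal_le_ofReal_iff (by positivity)] at h3
    linarith
  · obtain ⟨m, u, B, h1, -, h2⟩ := cover_rel'
    have h3 := (h tet tet_body m u B h1).trans h2
    have hc : (54 / 125 : ℝ≥0∞) = ENNReal.ofReal (54 / 125) := by
      rw [ENNReal.ofReal_div_of_pos (by norm_num)]; simp
    have hc' : (1 / 2 : ℝ≥0∞) = ENNReal.ofReal (1 / 2) := by
      rw [ENNReal.ofReal_div_of_pos (by norm_num)]; simp
    rw [hc, hc', ENNReal.ofReal_le_ofReal_iff (by positivity)] at h3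
    linarith

end Vale.Agent.Results.P243.Disproof
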